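import Vale.Agent.Lib.P064F.Wrap

open Finset
open scoped Classical

namespace Vale.Agent.Lib.P064G

open Vale.Agent.Lib.P064 Vale.Agent.Lib.P064F

variable {V : Type} [Fintype V]

/-- Copies of `K` in `H` are counted by automorphisms and images of the right size. -/
lemma card_Om_le_choose {W : Type} [Fintype W] {H : SimpleGraph V} {K : SimpleGraph W}
    (hK : NoIso K) :
    (Om H K).card ≤ Nat.card (K ≃g K) * (H.edgeFinset.card).choose K.edgeFinset.card := by
  have h := Finset.card_le_mul_card_image (f := eimg K) (Om H K) (Nat.card (K ≃g K))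
    (fun a ha => fiber_le_aut hK a ha)
  have him : (Om H K).image (eimg K) ⊆ H.edgeFinset.powersetCard K.edgeFinset.card := by
    intro a ha
    obtain ⟨g, hg, rfl⟩ := mem_image.1 ha
    exact Finset.mem_powersetCard.2 ⟨eimg_sub hg, card_eimg (mem_Om.1 hg).1⟩
  have h2 := Finset.card_le_card him
  rw [Finset.card_powersetCard] at h2
  exact h.trans (Nat.mul_le_mul_left _ h2)

lemma choose_mul_pow_le (N m : ℕ) {x : ℝ} (hx : 0 ≤ x) :
    (N.choose m : ℝ) * x ^ m ≤ (1 + x) ^ N := by
  by_cases hm : m ≤ N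
  · have h1 := add_pow x 1 N
    rw [add_comm] at h1
    rw [h1]
    have h2 : ∀ j ∈ Finset.range (N + 1), 0 ≤ x ^ j * 1 ^ (N - j) * (N.choose j : ℝ) := by
      intro j _
      positivity
    have h3 := Finset.single_le_sum h2 (Finset.mem_range.2 (Nat.lt_succ_of_le hm))
    simp only [one_pow, mul_one] at h3 ⊢
    linarith
  · rw [Nat.choose_eq_zero_of_lt (by omega)]
    simp only [Nat.cast_zero, zero_mul]
    positivity

/-- The entropy bound for the binomial coefficient. -/
lemma choose_le_entropy {N m s : ℕ} {X : ℝ} (hX : 1 ≤ X) (hN : (N : ℝ) ≤ X * s) (hm : m ≤ s) :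
    (N.choose m : ℝ) ≤ (Real.exp 1 * X) ^ s := by
  have hX0 : 0 < X := by linarith
  have h1 := choose_mul_pow_le N m (x := 1 / X) (by positivity)
  have h2 : (1 + 1 / X) ^ N ≤ Real.exp 1 ^ s := by
    have h3 : 1 + 1 / X ≤ Real.exp (1 / X) := by
      have := Real.add_one_le_exp (1 / X)
      linarith
    calc (1 + 1 / X) ^ N ≤ Real.exp (1 / X) ^ N := pow_le_pow_left₀ (by positivity) h3 _
      _ = Real.exp ((N : ℝ) * (1 / X)) := by rw [← Real.exp_nat_mul]
      _ ≤ Real.exp ((s : ℝ) * 1) := by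
          apply Real.exp_le_exp.2
          rw [mul_one, mul_one_div, div_le_iff₀ hX0]
          linarith
      _ = Real.exp 1 ^ s := by rw [Real.exp_nat_mul]
  have h4 : (0 : ℝ) < (1 / X) ^ m := by positivity
  have h5 : (N.choose m : ℝ) ≤ Real.exp 1 ^ s * X ^ m := by
    have h6 : (N.choose m : ℝ) * (1 / X) ^ m ≤ Real.exp 1 ^ s := h1.trans h2
    have h7 : (1 / X) ^ m * X ^ m = 1 := by
      rw [← mul_pow, one_div, inv_mul_cancel₀ hX0.ne', one_pow]
    calc (N.choose m : ℝ) = (N.choose m : ℝ) * ((1 / X) ^ m * X ^ m) := by rw [h7, mul_one]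
      _ = ((N.choose m : ℝ) * (1 / X) ^ m) * X ^ m := by ring
      _ ≤ _ := mul_le_mul_of_nonneg_right h6 (by positivity)
  refine h5.trans ?_
  rw [mul_pow]
  have hexp := Real.exp_pos 1
  have h8 : X ^ m ≤ X ^ s := pow_le_pow_right₀ hX hm
  exact mul_le_mul_of_nonneg_left h8 (by positivity)

/-- The main bound for graphs without isolated vertices. -/
theorem main_poly {H : SimpleGraph V} {n : ℕ} {q : ℝ} {Lam : ℕ} (hn : 0 < n)
    (hV : Fintype.card V ≤ n) (hq : 0 < q) (hq1 : q ≤ 1) (hK : HypK H n q) (hFlat : Flat H Lam)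
    (hLam : 1 ≤ Lam) :
    ∀ (k : ℕ) (α : Type) [Fintype α] (F : SimpleGraph α), F.edgeFinset.card = k → NoIso F →
      ((Om H F).card : ℝ) ≤ (n : ℝ) ^ Fintype.card α *
        ((700 * (Lam : ℝ)) ^ 2 * q) ^ k := by
  intro k
  induction k using Nat.strong_induction_on with
  | _ k ih =>
    intro α _ F hk hF
    set Lam0 : ℝ := 700 * (Lam : ℝ) with hLam0
    have hLamR : (1 : ℝ) ≤ (Lam : ℝ) := by exact_mod_cast hLam
    have hn0 : (0 : ℝ) < n := by exact_mod_cast hn
    have hL : 1 ≤ Lam0 := by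
      rw [hLam0]
      linarith
    have hL0 : 0 < Lam0 := by linarith
    have hrhs : 0 ≤ (n : ℝ) ^ Fintype.card α * (Lam0 ^ 2 * q) ^ k := by positivity
    by_cases hFne : (Om H F).Nonempty
    swap
    · rw [Finset.not_nonempty_iff_eq_empty] at hFne
      rw [hFne]
      simpa using hrhs
    rcases Nat.eq_zero_or_pos k with hk0 | hkpos
    · -- no edges
      subst hk0
      have hemp : IsEmpty α := by
        constructor
        intro x
        obtain ⟨y, hy⟩ := hF x
        have : s(x, y) ∈ F.edgeFinset := SimpleGraph.mem_edgeFinset.2 hy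
        rw [Finset.card_eq_zero.1 hk] at this
        simp at this
      have h1 : (Om H F).card ≤ 1 := by
        apply Finset.card_le_one.2
        intro a _ b _
        funext x
        exact (hemp.false x).elim
      have h2 : ((Om H F).card : ℝ) ≤ 1 := by exact_mod_cast h1
      simpa using h2
    obtain ⟨φ0, hφ0⟩ := hFne
    have hne0 : (Om H F).Nonempty := ⟨φ0, hφ0⟩
    obtain ⟨x0⟩ : Nonempty α := by
      by_contra hcon
      rw [not_nonempty_iff] at hcon
      have : F.edgeFinset = ∅ := by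
        ext e
        simp only [SimpleGraph.mem_edgeFinset, notMem_empty, iff_false]
        induction e using Sym2.ind with
        | _ a b => exact (hcon.false a).elim
      rw [this] at hk
      simp at hk
      omega
    have v0 : V := φ0 x0
    have hIH : ∀ E : Finset (Sym2 α), E ⊆ F.edgeFinset → 2 * E.card ≤ F.edgeFinset.card →
        ((Om H (subG E)).card : ℝ) ≤ (n : ℝ) ^ (sup E).card * (Lam0 ^ 2 * q) ^ E.card := by
      intro E hE h2
      have hlt : E.card < k := by omega
      have := ih E.card hlt ↥(sup E) (subG E) (subG_edges hE) (subG_noIso hE)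
      rwa [Fintype.card_coe] at this
    set eH := H.edgeFinset.card with heH
    set v := Fintype.card α with hv
    set D := 4 * Lam * k with hD
    have hDpos : 0 < D := by
      rw [hD]
      positivity
    -- the number of copies
    obtain ⟨M, hM1, hM2, hM3⟩ : ∃ M : ℕ, 1 ≤ M ∧ (M - 1) * D ≤ eH ∧ eH ≤ 2 * M * D := by
      by_cases hcase : eH < D
      · refine ⟨1, le_rfl, by simp, by omega⟩
      · refine ⟨eH / D, ?_, ?_, ?_⟩
        · exact Nat.div_pos (by omega) hDpos
        · calc (eH / D - 1) * D ≤ eH / D * D := Nat.mul_le_mul_right _ (Nat.sub_le _ _)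
            _ ≤ eH := Nat.div_mul_le_self _ _
        · have h1 : eH < D * (eH / D + 1) := Nat.lt_mul_div_succ _ hDpos
          have h2 : 1 ≤ eH / D := Nat.div_pos (by omega) hDpos
          calc eH ≤ D * (eH / D + 1) := h1.le
            _ ≤ D * (2 * (eH / D)) := Nat.mul_le_mul_left _ (by omega)
            _ = _ := by ring
    have hM' : 4 * Lam * ((M - 1) * F.edgeFinset.card) ≤ H.edgeFinset.card := by
      rw [hk]
      calc 4 * Lam * ((M - 1) * k) = (M - 1) * D := by rw [hD]; ring
        _ ≤ eH := hM2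
    obtain ⟨W, _, K, hKn, hKe, hKT⟩ := chain_glue hn hV hq hq1 hL v0 hFlat hF (by omega) hIH hne0 M hM'
      M le_rfl
    rw [hk] at hKT hKe
    set B := BB n q Lam0 v k with hB
    have hBpos : 0 < B := BB_pos hn hq hL0 _ _
    have hνpos : (0 : ℝ) < (Om H F).card := by exact_mod_cast Finset.card_pos.2 hne0
    set T := ((Om H F).card : ℝ) / (2 * B) with hT
    have hTpos : 0 < T := by positivity
    have hwK : 0 < wt n q K := wt_pos hn hq K
    have hexp := Real.exp_pos 1
    -- the end of the chain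
    have hX : (Om H K).Nonempty := by
      have h0 : 0 < T ^ M * wt n q K := by positivity
      have : (0 : ℝ) < (Om H K).card := lt_of_lt_of_le h0 hKT
      exact Finset.card_pos.1 (by exact_mod_cast this)
    obtain ⟨g1, hg1⟩ := hX
    have hA := hK W K (nonempty_copy hg1)
    have hc := card_Om_le_choose (H := H) hKn
    have hc' : ((Om H K).card : ℝ) ≤ (Nat.card (K ≃g K) : ℝ)
        * ((H.edgeFinset.card).choose K.edgeFinset.card : ℝ) := by
      exact_mod_cast hc
    set X : ℝ := 8 * (Lam : ℝ) with hXdef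
    have hX1 : 1 ≤ X := by
      rw [hXdef]
      linarith
    have hNle : ((H.edgeFinset.card : ℕ) : ℝ) ≤ X * ((M * k : ℕ) : ℝ) := by
      have h0 : H.edgeFinset.card ≤ 8 * Lam * (M * k) := by
        calc H.edgeFinset.card = eH := rfl
          _ ≤ 2 * M * D := hM3
          _ = _ := by rw [hD]; ring
      have h0' : ((H.edgeFinset.card : ℕ) : ℝ) ≤ ((8 * Lam * (M * k) : ℕ) : ℝ) := by
        exact_mod_cast h0
      refine h0'.trans (le_of_eq ?_)
      rw [hXdef]
      push_cast
      ring
    have hch := choose_le_entropy hX1 hNle hKe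
    have hend : ((Om H K).card : ℝ) ≤ 2 * (Real.exp 1 * X) ^ (M * k) * wt n q K := by
      have hwt : wt n q K = (n : ℝ) ^ Fintype.card W * q ^ K.edgeFinset.card := rfl
      calc ((Om H K).card : ℝ)
          ≤ (Nat.card (K ≃g K) : ℝ) * ((H.edgeFinset.card).choose K.edgeFinset.card : ℝ) := hc'
        _ ≤ (2 * (n : ℝ) ^ Fintype.card W * q ^ K.edgeFinset.card) * (Real.exp 1 * X) ^ (M * k) :=
            mul_le_mul hA hch (by positivity) (by positivity)
        _ = _ := by
            rw [hwt]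
            ring
    have h1 : T ^ M ≤ 2 * (Real.exp 1 * X) ^ (M * k) := by
      have := hKT.trans hend
      exact le_of_mul_le_mul_right this hwK
    have hM0 : M ≠ 0 := by omega
    have h2 : 2 * (Real.exp 1 * X) ^ (M * k) ≤ (2 * (Real.exp 1 * X) ^ k) ^ M := by
      have e0 : (2 * (Real.exp 1 * X) ^ k) ^ M = 2 ^ M * (Real.exp 1 * X) ^ (M * k) := by
        rw [mul_pow (2 : ℝ), ← pow_mul, mul_comm k M]
      rw [e0]
      have h21 : (2 : ℝ) ≤ 2 ^ M := by
        calc (2 : ℝ) = 2 ^ 1 := by norm_num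
          _ ≤ 2 ^ M := pow_le_pow_right₀ (by norm_num) hM1
      exact mul_le_mul_of_nonneg_right h21 (by positivity)
    have h3 : T ≤ 2 * (Real.exp 1 * X) ^ k :=
      (pow_le_pow_iff_left₀ hTpos.le (by positivity) hM0).1 (h1.trans h2)
    have h4 : ((Om H F).card : ℝ) ≤ (2 * (Real.exp 1 * X) ^ k) * (2 * B) := by
      rw [hT, div_le_iff₀ (by positivity)] at h3
      exact h3
    have hv2 : v ≤ 2 * k := by
      have := card_le_two_edges hF
      rw [hk] at this
      exact this
    refine h4.trans ?_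
    have h5 : (2 * (Real.exp 1 * X) ^ k) * (2 * (2 ^ k * 2 ^ v)) ≤ Lam0 ^ k := by
      have h51 : (2 : ℝ) ^ v ≤ 2 ^ (2 * k) := pow_le_pow_right₀ (by norm_num) hv2
      have h52 : (4 : ℝ) ≤ 4 ^ k := by
        calc (4 : ℝ) = 4 ^ 1 := by norm_num
          _ ≤ 4 ^ k := pow_le_pow_right₀ (by norm_num) hkpos
      have h53 : (32 * Real.exp 1 * X) ≤ Lam0 := by
        have h7 := Real.exp_one_lt_d9
        rw [hLam0, hXdef]
        nlinarith
      calc (2 * (Real.exp 1 * X) ^ k) * (2 * (2 ^ k * 2 ^ v))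
          = 4 * (Real.exp 1 * X) ^ k * 2 ^ k * 2 ^ v := by ring
        _ ≤ 4 ^ k * (Real.exp 1 * X) ^ k * 2 ^ k * 2 ^ (2 * k) := by
            gcongr
        _ = (32 * Real.exp 1 * X) ^ k := by
            rw [pow_mul]
            rw [← mul_pow, ← mul_pow, ← mul_pow]
            congr 1
            ring
        _ ≤ Lam0 ^ k := pow_le_pow_left₀ (by positivity) h53 _
    have hnq : 0 ≤ (n : ℝ) ^ v * q ^ k * Lam0 ^ k := by positivity
    calc (2 * (Real.exp 1 * X) ^ k) * (2 * B)
        = ((2 * (Real.exp 1 * X) ^ k) * (2 * (2 ^ k * 2 ^ v))) * ((n : ℝ) ^ v * q ^ k * Lam0 ^ k) := by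
          rw [hB]; unfold BB; ring
      _ ≤ Lam0 ^ k * ((n : ℝ) ^ v * q ^ k * Lam0 ^ k) := mul_le_mul_of_nonneg_right h5 hnq
      _ = (n : ℝ) ^ v * (Lam0 ^ 2 * q) ^ k := alg_id _ _ _ _ _

end Vale.Agent.Lib.P064G
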