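import Vale.Agent.Lib.P064G.Poly

open Finset
open scoped Classical

namespace Vale.Agent.Lib.P064G

open Vale.Agent.Lib.P064 Vale.Agent.Lib.P064F

variable {V : Type} [Fintype V]

/-- The constant of the chain. -/
noncomputable def LP (Lam : ℕ) : ℝ := (700 * (Lam : ℝ)) ^ 2

lemma LP_pos {Lam : ℕ} (hLam : 1 ≤ Lam) : 0 < LP Lam := by
  have : (1 : ℝ) ≤ (Lam : ℝ) := by exact_mod_cast hLam
  unfold LP
  positivity

/-- Labelled copies, general `F`. -/
theorem poly_labelled {α : Type} [Fintype α] (F : SimpleGraph α) (H : SimpleGraph V) {n : ℕ}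
    {Lam : ℕ} (hn : 2 ≤ n) (hV : Fintype.card V ≤ n) {q : ℝ} (hq : 0 < q) (hq1 : q ≤ 1)
    (hK : HypK H n q) (hFlat : Flat H Lam) (hLam : 1 ≤ Lam) (ψ : α → V) :
    ((Ext F H ∅ univ ψ).card : ℝ) ≤ (n.descFactorial (Fintype.card α) : ℝ) *
      (Real.exp 1 ^ 2 * LP Lam * q) ^ F.edgeFinset.card := by
  have hn1 : (1 : ℝ) ≤ n := by exact_mod_cast (by omega : 1 ≤ n)
  have hn0 : (0 : ℝ) < n := by linarith
  have hLL := LP_pos hLam
  by_cases hne : (Ext F H ∅ univ ψ).Nonempty
  swap
  · rw [Finset.not_nonempty_iff_eq_empty] at hne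
    rw [hne]
    simp only [card_empty, Nat.cast_zero]
    positivity
  obtain ⟨φ0, hφ0⟩ := hne
  set U := suppF F with hU
  set I : Finset α := univ \ U with hI
  obtain ⟨h01, h02, h03⟩ := mem_Ext.1 hφ0
  -- the bound on the support
  have hchain : ((Ext F H ∅ U ψ).card : ℝ) ≤ (n : ℝ) ^ U.card * (LP Lam * q) ^ F.edgeFinset.card := by
    have hsup : sup F.edgeFinset = U := rfl
    have hmain := main_poly (by omega) hV hq hq1 hK hFlat hLam F.edgeFinset.card ↥(sup F.edgeFinset)
      (subG F.edgeFinset) (subG_edges (F := F) (le_refl _)) (subG_noIso (F := F) (le_refl _))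
    rw [Fintype.card_coe] at hmain
    have hle : (Ext F H ∅ U ψ).card ≤ (Om H (subG F.edgeFinset)).card := by
      apply Finset.card_le_card_of_injOn (fun φ => fun a => φ a.1)
      · intro φ hφ
        obtain ⟨h1, h2, h3⟩ := mem_Ext.1 (Finset.mem_coe.1 hφ)
        refine Finset.mem_coe.2 (mem_Om.2 ⟨?_, ?_⟩)
        · intro a b hab
          apply Subtype.ext
          apply h2 _ _ hab
          · simp only [empty_union, Finset.mem_coe]
            exact a.2
          · simp only [empty_union, Finset.mem_coe]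
            exact b.2
        · rintro a b ⟨_, hab⟩
          apply h3
          · simp only [empty_union]
            exact a.2
          · simp only [empty_union]
            exact b.2
          · exact SimpleGraph.mem_edgeFinset.1 hab
      · intro φ hφ φ' hφ' h
        obtain ⟨h1, _, _⟩ := mem_Ext.1 (Finset.mem_coe.1 hφ)
        obtain ⟨h1', _, _⟩ := mem_Ext.1 (Finset.mem_coe.1 hφ')
        funext x
        by_cases hx : x ∈ U
        · exact congrFun h ⟨x, hx⟩
        · rw [h1 x hx, h1' x hx]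
    calc ((Ext F H ∅ U ψ).card : ℝ) ≤ ((Om H (subG F.edgeFinset)).card : ℝ) := by exact_mod_cast hle
      _ ≤ _ := hmain
  have hfib := ext_fibers F H (S := ∅) (B := U) (R := univ) ψ (Finset.subset_univ _) (by simp)
  have hUV : U.card ≤ n := by
    have : U.card ≤ (U.image φ0).card := by
      rw [Finset.card_image_of_injOn]
      intro a _ b _ hab
      exact h02 (by simp) (by simp) hab
    exact this.trans ((Finset.card_le_univ _).trans hV)
  have hfill : ∀ φ' ∈ Ext F H ∅ U ψ, (((Ext F H (∅ ∪ U) (univ \ U) φ').card : ℕ) : ℝ) ≤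
      ((n - U.card).descFactorial I.card : ℝ) := by
    intro φ' hφ'
    have hdU : Disjoint U I := Finset.disjoint_sdiff
    have hinj' : Set.InjOn φ' (↑U : Set α) := by
      intro a ha b hb hab
      exact (mem_Ext.1 hφ').2.1 (by simpa using ha) (by simpa using hb) hab
    have h1 := fill_count F H hdU hinj'
    rw [Finset.empty_union]
    have h2 : (Fintype.card V - U.card).descFactorial I.card ≤
        (n - U.card).descFactorial I.card := Nat.descFactorial_le _ (by omega)
    exact_mod_cast h1.trans h2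
  have hcount : ((Ext F H ∅ univ ψ).card : ℝ) ≤
      (Ext F H ∅ U ψ).card * ((n - U.card).descFactorial I.card : ℝ) := by
    calc ((Ext F H ∅ univ ψ).card : ℝ)
        ≤ (((Ext F H ∅ U ψ).biUnion (fun φ' => Ext F H (∅ ∪ U) (univ \ U) φ')).card : ℝ) := by
          exact_mod_cast Finset.card_le_card hfib
      _ ≤ _ := card_biUnion_real _ _ _ hfill
  have hcardI : U.card + I.card = Fintype.card α := by
    rw [hI, Finset.card_sdiff_of_subset (Finset.subset_univ _), Finset.card_univ]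
    have := Finset.card_le_univ U
    omega
  have hdesc : ((n - U.card).descFactorial I.card : ℝ) * (n.descFactorial U.card : ℝ) =
      (n.descFactorial (Fintype.card α) : ℝ) := by
    have := Nat.descFactorial_mul_descFactorial (n := n) (k := U.card) (m := Fintype.card α)
      (by omega)
    have e : Fintype.card α - U.card = I.card := by omega
    rw [e] at this
    exact_mod_cast this
  have hU2 : (U.card : ℝ) ≤ 2 * (F.edgeFinset.card : ℝ) := by
    exact_mod_cast card_suppF_le F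
  set t := F.edgeFinset.card with ht
  have hexpU : Real.exp (U.card : ℝ) ≤ Real.exp 1 ^ (2 * t) := by
    rw [← Real.exp_nat_mul]
    apply Real.exp_le_exp.2
    push_cast
    linarith
  have hpowU := pow_le_exp_desc hUV
  have hD : (0 : ℝ) ≤ ((n - U.card).descFactorial I.card : ℝ) := by positivity
  have hD2 : (0 : ℝ) ≤ (n.descFactorial U.card : ℝ) := by positivity
  have hq't : 0 ≤ (LP Lam * q) ^ t := by positivity
  have hstep : ((Ext F H ∅ U ψ).card : ℝ) ≤
      (Real.exp 1 ^ (2 * t) * (n.descFactorial U.card : ℝ)) * (LP Lam * q) ^ t := by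
    calc _ ≤ _ := hchain
      _ ≤ (Real.exp (U.card : ℝ) * (n.descFactorial U.card : ℝ)) * (LP Lam * q) ^ t := by gcongr
      _ ≤ _ := by gcongr
  calc ((Ext F H ∅ univ ψ).card : ℝ)
      ≤ (Ext F H ∅ U ψ).card * ((n - U.card).descFactorial I.card : ℝ) := hcount
    _ ≤ ((Real.exp 1 ^ (2 * t) * (n.descFactorial U.card : ℝ)) * (LP Lam * q) ^ t) *
          ((n - U.card).descFactorial I.card : ℝ) := mul_le_mul_of_nonneg_right hstep hD
    _ = (((n - U.card).descFactorial I.card : ℝ) * (n.descFactorial U.card : ℝ)) *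
        (Real.exp 1 ^ (2 * t) * (LP Lam * q) ^ t) := by ring
    _ = _ := by
      rw [hdesc]
      congr 1
      rw [pow_mul, ← mul_pow]
      congr 1
      ring

/-- The final constant. -/
noncomputable def CP (Lam : ℕ) : ℝ := 4000000 * (Lam : ℝ) ^ 2

lemma CP_ge {Lam : ℕ} (hLam : 1 ≤ Lam) : 1 ≤ CP Lam := by
  have h : (1 : ℝ) ≤ (Lam : ℝ) := by exact_mod_cast hLam
  unfold CP
  nlinarith

lemma base_le (Lam : ℕ) {q : ℝ} (hq : 0 ≤ q) : Real.exp 1 ^ 2 * LP Lam * q ≤ CP Lam * q := by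
  refine mul_le_mul_of_nonneg_right ?_ hq
  have h7 := Real.exp_one_lt_d9
  have hexp := Real.exp_pos 1
  have h8 : Real.exp 1 ^ 2 ≤ 8 := by nlinarith
  unfold LP CP
  have h9 : (0 : ℝ) ≤ (Lam : ℝ) ^ 2 := by positivity
  rw [mul_pow]
  nlinarith

theorem poly_labelled2 {α : Type} [Fintype α] (F : SimpleGraph α) (H : SimpleGraph V) {n : ℕ}
    {Lam : ℕ} (hn : 2 ≤ n) (hV : Fintype.card V ≤ n) {q : ℝ} (hq : 0 < q) (hq1 : q ≤ 1)
    (hK : HypK H n q) (hFlat : Flat H Lam) (hLam : 1 ≤ Lam) (ψ : α → V) :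
    ((Ext F H ∅ univ ψ).card : ℝ) ≤ (n.descFactorial (Fintype.card α) : ℝ) *
      (CP Lam * q) ^ F.edgeFinset.card := by
  refine (poly_labelled F H hn hV hq hq1 hK hFlat hLam ψ).trans ?_
  refine mul_le_mul_of_nonneg_left ?_ (by positivity)
  have hLP := LP_pos hLam
  have hexp := Real.exp_pos 1
  exact pow_le_pow_left₀ (by positivity) (base_le Lam hq.le) _

/-- The pointwise bound in the flat case. -/
theorem poly_pointwise {n : ℕ} (hn : 2 ≤ n) (H : SimpleGraph V) (hV : Fintype.card V ≤ n)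
    (hH : H ≠ ⊥) {Lam : ℕ} (hFlat : Flat H Lam) (hLam : 1 ≤ Lam) {q : ℝ} (hq0 : 0 ≤ q) (hq1 : q ≤ 1)
    (hqF : ∀ F : H.Subgraph, (1 : ℝ) / 2 ≤ expCount n q F.coe) (F : H.Subgraph) :
    (H.copyCount F.coe : ℝ) ≤ expCount n (min 1 (CP Lam * q)) F.coe := by
  have hK := hypK_of hq0 hqF
  have hqpos : 0 < q := q_pos hH hq0 hK
  have hC := CP_ge hLam
  by_cases hcase : 1 ≤ CP Lam * q
  · rw [min_eq_left hcase]
    exact top_bound H hV F.coe
  · push Not at hcase
    rw [min_eq_right hcase.le]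
    have hA : (0 : ℝ) < Nat.card (F.coe ≃g F.coe) := by exact_mod_cast card_aut_pos F.coe
    apply le_of_mul_le_mul_right _ hA
    rw [copy_mul_eq, expCount_mul]
    by_cases hc : Nonempty (F.coe.Copy H)
    · obtain ⟨c⟩ := hc
      have h1 := labelled_le_ext F.coe H (⇑c)
      have h2 := poly_labelled2 F.coe H hn hV hqpos hq1 hK hFlat hLam (⇑c)
      calc (H.labelledCopyCount F.coe : ℝ) ≤ ((Ext F.coe H ∅ univ ⇑c).card : ℝ) := by
            exact_mod_cast h1
        _ ≤ _ := h2
        _ = _ := rfl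
    · have h0 : H.labelledCopyCount F.coe = 0 := by
        rw [SimpleGraph.labelledCopyCount_eq_zero]
        exact fun hcon => hc hcon
      rw [h0]
      simp only [Nat.cast_zero]
      have : 0 ≤ CP Lam * q := by positivity
      positivity

/-- The main theorem of the flat case. -/
theorem poly_tilde {n : ℕ} (hn : 2 ≤ n) (H : SimpleGraph V) (hV : Fintype.card V ≤ n)
    (hH : H ≠ ⊥) {Lam : ℕ} (hFlat : Flat H Lam) (hLam : 1 ≤ Lam) :
    pTilde n H ≤ CP Lam * pE n H := by
  set Cn : ℝ := CP Lam with hCn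
  have hCnpos : 1 ≤ Cn := CP_ge hLam
  have hbdd : BddBelow {p : ℝ | 0 ≤ p ∧ p ≤ 1 ∧ ∀ F : H.Subgraph,
      (H.copyCount F.coe : ℝ) / 2 ≤ expCount n p F.coe} := ⟨0, fun p hp => hp.1⟩
  have hsubcount : ∀ F : H.Subgraph, 1 ≤ H.copyCount F.coe := by
    intro F
    have : 0 < H.copyCount F.coe := SimpleGraph.copyCount_pos.2 F.coe_isContained
    omega
  have htop : ∀ F : H.Subgraph, (H.copyCount F.coe : ℝ) ≤ expCount n 1 F.coe := by
    intro F
    exact top_bound H hV F.coe
  have h1E : (1 : ℝ) ∈ {p : ℝ | 0 ≤ p ∧ p ≤ 1 ∧ ∀ F : H.Subgraph,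
      (1 : ℝ) / 2 ≤ expCount n p F.coe} := by
    refine ⟨by norm_num, le_rfl, fun F => ?_⟩
    have h1 := htop F
    have h0 : (1 : ℝ) ≤ H.copyCount F.coe := by exact_mod_cast hsubcount F
    linarith
  have hkey : ∀ q ∈ {p : ℝ | 0 ≤ p ∧ p ≤ 1 ∧ ∀ F : H.Subgraph,
      (1 : ℝ) / 2 ≤ expCount n p F.coe}, pTilde n H / Cn ≤ q := by
    rintro q ⟨hq0, hq1, hqF⟩
    have hqpos : 0 < q := q_pos hH hq0 (hypK_of hq0 hqF)
    rw [div_le_iff₀ (by linarith)]
    have hmin : min 1 (Cn * q) ≤ q * Cn := by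
      rw [mul_comm q Cn]; exact min_le_right _ _
    refine le_trans ?_ hmin
    have hmem : min 1 (Cn * q) ∈ {p : ℝ | 0 ≤ p ∧ p ≤ 1 ∧ ∀ F : H.Subgraph,
        (H.copyCount F.coe : ℝ) / 2 ≤ expCount n p F.coe} := by
      refine ⟨le_min (by norm_num) (by positivity), min_le_left _ _, fun F => ?_⟩
      have h1 := poly_pointwise hn H hV hH hFlat hLam hq0 hq1 hqF F
      have h0 : (0 : ℝ) ≤ H.copyCount F.coe := by positivity
      linarith
    exact csInf_le hbdd hmem
  have hfinal : pTilde n H / Cn ≤ pE n H := le_csInf ⟨1, h1E⟩ hkey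
  rw [div_le_iff₀ (by linarith)] at hfinal
  rw [mul_comm] at hfinal
  exact hfinal

end Vale.Agent.Lib.P064G
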